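import Vale.Agent.Lib.P068.Perturb

/-!
# P068: matroid intersection for infinite matroids, finite defect and finite-rank perturbations

All matroids are Mathlib matroids (possibly infinite, the axioms of
Bruhn, Diestel, Kriesell, Pendavingh and Wollan).  The definitions `SatisfiesIntersection`
and `ClosureLe` are in `Vale/Agent/Lib/P068/Defs.lean`.
-/

namespace Vale.Agent.Results.P068.FiniteDefect

open Matroid Vale.Agent.Lib.P068

theorem result {α : Type*} (M N : Matroid α) (hE : M.E = N.E) :
    -- (1) an intersection certificate with a finite defect `F` can be repaired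
    (∀ JM JN F : Set α, Disjoint JM JN → M.Indep (JM ∪ JN) → N.Indep (JM ∪ JN) → F.Finite →
      M.closure (JM ∪ F) ∪ N.closure (JN ∪ F) = M.E → SatisfiesIntersection M N) ∧
    -- (2) one matroid of finite rank or of finite corank, the other one arbitrary
    (M.RankFinite ∨ M✶.RankFinite ∨ N.RankFinite ∨ N✶.RankFinite → SatisfiesIntersection M N) ∧
    -- (3) a set of finite rank in `N` may be deleted
    (∀ A : Set α, N.IsRkFinite A → SatisfiesIntersection (M ＼ A) (N ＼ A) →
      SatisfiesIntersection M N) ∧
    -- (4) invariance under deleting or contracting a set of finite rank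
    (∀ A : Set α, M.IsRkFinite A → N.IsRkFinite A →
      (SatisfiesIntersection M N ↔ SatisfiesIntersection (M ＼ A) (N ＼ A)) ∧
      (SatisfiesIntersection M N ↔ SatisfiesIntersection (M ／ A) (N ／ A)) ∧
      (SatisfiesIntersection M N ↔ SatisfiesIntersection (M ／ A) (N ＼ A))) ∧
    -- (5) invariance under finite-rank perturbations of both matroids
    (∀ M' N' : Matroid α, M'.E = M.E → N'.E = M.E →
      ClosureLe M M' → ClosureLe M' M → ClosureLe N N' → ClosureLe N' N →
      (SatisfiesIntersection M N ↔ SatisfiesIntersection M' N')) :=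
  ⟨fun _ _ _ hd hM hN hF hc => si_of_finite_defect hE hd hM hN hF hc,
    si_of_rank hE,
    fun _ hA h => si_of_delete hE hA h,
    fun _ hM hN => si_iff_minors hE hM hN,
    fun _ _ hM' hN' h1 h2 h3 h4 => si_iff_perturb hE hM' hN' h1 h2 h3 h4⟩

end Vale.Agent.Results.P068.FiniteDefect
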